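import Vale.Agent.P328.Tables

namespace Vale.Agent.Results.P328.RhombusTables

open Vale.Agent.P328

/-- Comparison theorem and rhombus inequality for the numbers of contingency tables. -/
theorem result :
    (∀ (m n : ℕ) (r₁ r₂ r₃ r₄ : Fin m → ℕ) (c₁ c₂ c₃ c₄ : Fin n → ℕ),
      r₁ + r₂ = r₃ + r₄ → c₁ + c₂ = c₃ + c₄ →
      (∀ (A : Finset (Fin m)) (B : Finset (Fin n)),
        |∑ i ∈ A, ((r₃ i : ℤ) - r₄ i) - ∑ j ∈ B, ((c₃ j : ℤ) - c₄ j)| ≤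
          |∑ i ∈ A, ((r₁ i : ℤ) - r₂ i) - ∑ j ∈ B, ((c₁ j : ℤ) - c₂ j)|) →
      tableCount r₁ c₁ * tableCount r₂ c₂ ≤ tableCount r₃ c₃ * tableCount r₄ c₄) ∧
    (∀ (m n : ℕ) (r : Fin m → ℕ) (w : Fin n → ℕ) (a b c : Fin n),
      tableCount r (w + Pi.single a 1 + Pi.single a 1) *
          tableCount r (w + Pi.single b 1 + Pi.single c 1) ≤
        tableCount r (w + Pi.single a 1 + Pi.single b 1) *
          tableCount r (w + Pi.single a 1 + Pi.single c 1)) :=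
  ⟨fun _ _ r₁ r₂ r₃ r₄ c₁ c₂ c₃ c₄ hr hc hcut =>
      tableCount_mul_le r₁ r₂ r₃ r₄ c₁ c₂ c₃ c₄ hr hc hcut,
    fun _ _ r w a b c => tableCount_rhombus r w a b c⟩

end Vale.Agent.Results.P328.RhombusTables
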